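import Mathlib

/-!
P133 (row S of helper307): selection for an open relation over compact spaces with property C.
Core, adapted from the proof of row T by helper712.
-/

namespace Vale.Agent.P133.R2.H442

open Set Topology

universe v w

section

variable {K : Type v} [TopologicalSpace K] {V : Type w} [NormedAddCommGroup V] [NormedSpace ℝ V]

/-- tube lemma with a margin -/
theorem tube {G : Set (K × V)} (hG : IsOpen G) {t : K} {B : Set V} (hB : IsCompact B)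
    (h : ∀ b ∈ B, (t, b) ∈ G) :
    ∃ U : Set K, IsOpen U ∧ t ∈ U ∧ ∃ μ : ℝ, 0 < μ ∧ ∀ s ∈ U, ∀ b ∈ B, ∀ e : V, ‖e‖ ≤ μ →
      (s, b + e) ∈ G := by
  refine hB.induction_on (p := fun B' => ∃ U : Set K, IsOpen U ∧ t ∈ U ∧ ∃ μ : ℝ, 0 < μ ∧
    ∀ s ∈ U, ∀ b ∈ B', ∀ e : V, ‖e‖ ≤ μ → (s, b + e) ∈ G) ?_ ?_ ?_ ?_
  · exact ⟨univ, isOpen_univ, trivial, 1, one_pos, fun _ _ b hb => absurd hb (notMem_empty b)⟩
  · rintro B₁ B₂ h12 ⟨U, hU, ht, μ, hμ, h1⟩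
    exact ⟨U, hU, ht, μ, hμ, fun s hs b hb => h1 s hs b (h12 hb)⟩
  · rintro B₁ B₂ ⟨U₁, hU₁, ht₁, μ₁, hμ₁, h₁⟩ ⟨U₂, hU₂, ht₂, μ₂, hμ₂, h₂⟩
    refine ⟨U₁ ∩ U₂, hU₁.inter hU₂, ⟨ht₁, ht₂⟩, min μ₁ μ₂, lt_min hμ₁ hμ₂, ?_⟩
    rintro s ⟨hs1, hs2⟩ b (hb | hb) e he
    · exact h₁ s hs1 b hb e (he.trans (min_le_left _ _))
    · exact h₂ s hs2 b hb e (he.trans (min_le_right _ _))
  · intro b hb
    obtain ⟨U, W, hU, hW, htU, hbW, hUW⟩ := isOpen_prod_iff.1 hG t b (h b hb)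
    obtain ⟨r, hr, hrW⟩ := Metric.isOpen_iff.1 hW b hbW
    refine ⟨Metric.ball b (r / 2), mem_nhdsWithin_of_mem_nhds
      (Metric.ball_mem_nhds b (half_pos hr)), U, hU, htU, r / 4, by positivity, ?_⟩
    intro s hs b' hb' e he
    refine hUW ⟨hs, hrW ?_⟩
    rw [Metric.mem_ball, dist_eq_norm] at hb' ⊢
    have h1 : b' + e - b = (b' - b) + e := by abel
    have h2 := norm_add_le (b' - b) e
    rw [h1]
    linarith

/-- the requirements on a stage -/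
def Good (G : Set (K × V)) (B : Set V) (ρ μ : ℝ) (p : Set K × (V → V)) : Prop :=
  IsOpen p.1 ∧ ContinuousOn p.2 B ∧ (∀ b ∈ B, ‖p.2 b‖ ≤ ρ) ∧
    ∀ t ∈ p.1, ∀ b ∈ B, ∀ e : V, ‖e‖ ≤ μ → (t, b + p.2 b + e) ∈ G

theorem step [CompactSpace K] {G : Set (K × V)} (hG : IsOpen G)
    (hz : ∀ (t : K) (C : Set V), IsCompact C → ∀ ρ : ℝ, 0 < ρ →
      ∃ z : V → V, ContinuousOn z C ∧ ∀ b ∈ C, ‖z b‖ ≤ ρ ∧ (t, b + z b) ∈ G)
    {B : Set V} (hB : IsCompact B) {ρ : ℝ} (hρ : 0 < ρ) :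
    ∃ (F : Set (Set K × (V → V))) (μ : ℝ), F.Finite ∧ 0 < μ ∧ (∀ p ∈ F, Good G B ρ μ p) ∧
      ∀ t, ∃ p ∈ F, t ∈ p.1 := by
  suffices hmain : ∃ (F : Set (Set K × (V → V))) (μ : ℝ), F.Finite ∧ 0 < μ ∧
      (∀ p ∈ F, Good G B ρ μ p) ∧ ∀ t ∈ (univ : Set K), ∃ p ∈ F, t ∈ p.1 by
    obtain ⟨F, μ, h1, h2, h3, h4⟩ := hmain
    exact ⟨F, μ, h1, h2, h3, fun t => h4 t trivial⟩
  refine (isCompact_univ (X := K)).induction_on
    (p := fun X' => ∃ (F : Set (Set K × (V → V))) (μ : ℝ), F.Finite ∧ 0 < μ ∧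
      (∀ p ∈ F, Good G B ρ μ p) ∧ ∀ t ∈ X', ∃ p ∈ F, t ∈ p.1) ?_ ?_ ?_ ?_
  · exact ⟨∅, 1, finite_empty, one_pos, fun p hp => absurd hp (notMem_empty p),
      fun t ht => absurd ht (notMem_empty t)⟩
  · rintro X₁ X₂ h12 ⟨F, μ, h1, h2, h3, h4⟩
    exact ⟨F, μ, h1, h2, h3, fun t ht => h4 t (h12 ht)⟩
  · rintro X₁ X₂ ⟨F₁, μ₁, a1, a2, a3, a4⟩ ⟨F₂, μ₂, b1, b2, b3, b4⟩
    refine ⟨F₁ ∪ F₂, min μ₁ μ₂, a1.union b1, lt_min a2 b2, ?_, ?_⟩
    · rintro p (hp | hp)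
      · obtain ⟨c1, c2, c3, c4⟩ := a3 p hp
        exact ⟨c1, c2, c3, fun t ht b hb e he => c4 t ht b hb e (he.trans (min_le_left _ _))⟩
      · obtain ⟨c1, c2, c3, c4⟩ := b3 p hp
        exact ⟨c1, c2, c3, fun t ht b hb e he => c4 t ht b hb e (he.trans (min_le_right _ _))⟩
    · rintro t (ht | ht)
      · obtain ⟨p, hp, h⟩ := a4 t ht
        exact ⟨p, Or.inl hp, h⟩
      · obtain ⟨p, hp, h⟩ := b4 t ht
        exact ⟨p, Or.inr hp, h⟩
  · intro t _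
    obtain ⟨z, hzc, hz'⟩ := hz t B hB ρ hρ
    have hcomp : IsCompact ((fun b => b + z b) '' B) :=
      hB.image_of_continuousOn (continuousOn_id.add hzc)
    obtain ⟨U, hU, htU, μ, hμ, h1⟩ := tube hG (t := t) hcomp (by
      rintro _ ⟨b, hb, rfl⟩
      exact (hz' b hb).2)
    refine ⟨U, mem_nhdsWithin_of_mem_nhds (hU.mem_nhds htU), {(U, z)}, μ,
      finite_singleton _, hμ, ?_, ?_⟩
    · rintro p rfl
      exact ⟨hU, hzc, fun b hb => (hz' b hb).1, fun s hs b hb e he => h1 s hs _ ⟨b, hb, rfl⟩ e he⟩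
    · exact fun s hs => ⟨_, rfl, hs⟩

/-- the state of the recursion -/
structure St (V : Type w) [NormedAddCommGroup V] [NormedSpace ℝ V] where
  B : Set V
  comp : IsCompact B
  ρ : ℝ
  pos : 0 < ρ

theorem exists_next [CompactSpace K] {G : Set (K × V)} (hG : IsOpen G)
    (hz : ∀ (t : K) (C : Set V), IsCompact C → ∀ ρ : ℝ, 0 < ρ →
      ∃ z : V → V, ContinuousOn z C ∧ ∀ b ∈ C, ‖z b‖ ≤ ρ ∧ (t, b + z b) ∈ G) (s : St V) :
    ∃ (F : Set (Set K × (V → V))) (μ : ℝ) (s' : St V), (∀ p ∈ F, Good G s.B s.ρ μ p) ∧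
      (∀ t, ∃ p ∈ F, t ∈ p.1) ∧ s'.ρ ≤ s.ρ / 2 ∧ 2 * s'.ρ ≤ μ ∧ (∀ b ∈ s.B, b ∈ s'.B) ∧
      ∀ b ∈ s.B, ∀ p ∈ F, ∀ c ∈ Icc (0 : ℝ) 1, b + c • p.2 b ∈ s'.B := by
  obtain ⟨F, μ, h1, h2, h3, h4⟩ := step hG hz s.comp s.pos
  refine ⟨F, μ, ⟨s.B ∪ ⋃ p ∈ F, (fun x : ℝ × V => x.2 + x.1 • p.2 x.2) '' (Icc (0 : ℝ) 1 ×ˢ s.B),
    s.comp.union (h1.isCompact_biUnion fun p hp => ?_), min (s.ρ / 2) (μ / 2),
    lt_min (half_pos s.pos) (half_pos h2)⟩, h3, h4, min_le_left _ _, ?_, fun b hb => Or.inl hb,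
    fun b hb p hp c hc => Or.inr (mem_biUnion hp ⟨(c, b), ⟨hc, hb⟩, rfl⟩)⟩
  · refine (isCompact_Icc.prod s.comp).image_of_continuousOn ?_
    refine continuous_snd.continuousOn.add (continuous_fst.continuousOn.smul ?_)
    exact (h3 p hp).2.1.comp continuous_snd.continuousOn fun x hx => hx.2
  · have : min (s.ρ / 2) (μ / 2) ≤ μ / 2 := min_le_right _ _
    change 2 * min (s.ρ / 2) (μ / 2) ≤ μ
    linarith

theorem exists_seq [CompactSpace K] {G : Set (K × V)} (hG : IsOpen G)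
    (hz : ∀ (t : K) (C : Set V), IsCompact C → ∀ ρ : ℝ, 0 < ρ →
      ∃ z : V → V, ContinuousOn z C ∧ ∀ b ∈ C, ‖z b‖ ≤ ρ ∧ (t, b + z b) ∈ G) :
    ∃ (F : ℕ → Set (Set K × (V → V))) (μ ρ : ℕ → ℝ) (B : ℕ → Set V), (0 : V) ∈ B 0 ∧
      (∀ i, 0 < ρ i) ∧ (∀ i, ∀ p ∈ F i, Good G (B i) (ρ i) (μ i) p) ∧
      (∀ i t, ∃ p ∈ F i, t ∈ p.1) ∧ (∀ i, ρ (i + 1) ≤ ρ i / 2) ∧
      (∀ i, 2 * ρ (i + 1) ≤ μ i) ∧ (∀ i, ∀ b ∈ B i, b ∈ B (i + 1)) ∧
      ∀ i, ∀ b ∈ B i, ∀ p ∈ F i, ∀ c ∈ Icc (0 : ℝ) 1, b + c • p.2 b ∈ B (i + 1) := by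
  choose F μ nx hF hcov hρ hρμ hB hB' using exists_next (K := K) hG hz
  let s0 : St V := ⟨{0}, isCompact_singleton, 1, one_pos⟩
  let st : ℕ → St V := fun n => Nat.rec s0 (fun _ s => nx s) n
  exact ⟨fun i => F (st i), fun i => μ (st i), fun i => (st i).ρ, fun i => (st i).B,
    mem_singleton _, fun i => (st i).pos, fun i => hF (st i), fun i => hcov (st i),
    fun i => hρ (st i), fun i => hρμ (st i), fun i => hB (st i), fun i => hB' (st i)⟩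

end

theorem sel {K : Type v} [TopologicalSpace K] [CompactSpace K] [T2Space K]
    (hK : ∀ U : ℕ → Set (Set K), (∀ i, (∀ u ∈ U i, IsOpen u) ∧ ⋃₀ U i = Set.univ) →
      ∃ V : ℕ → Set (Set K), (∀ i, (∀ v ∈ V i, IsOpen v ∧ ∃ u ∈ U i, v ⊆ u) ∧
        (V i).PairwiseDisjoint id) ∧ (⋃ i, ⋃₀ V i) = Set.univ)
    {V : Type w} [NormedAddCommGroup V] [NormedSpace ℝ V] {G : Set (K × V)} (hG : IsOpen G)
    (hz : ∀ (t : K) (C : Set V), IsCompact C → ∀ ρ : ℝ, 0 < ρ →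
      ∃ z : V → V, ContinuousOn z C ∧ ∀ b ∈ C, ‖z b‖ ≤ ρ ∧ (t, b + z b) ∈ G) :
    ∃ F : C(K, V), ∀ t, (t, F t) ∈ G := by
  classical
  obtain ⟨F, μ, ρ, B, hB0, hρ0, hF, hcov, hρ, hρμ, hB, hB'⟩ := exists_seq hG hz
  obtain ⟨W, hW, hWcov⟩ := hK (fun i => Prod.fst '' F i) (fun i => ⟨by
    rintro _ ⟨p, hp, rfl⟩
    exact (hF i p hp).1, by
    rw [eq_univ_iff_forall]
    intro t
    obtain ⟨p, hp, ht⟩ := hcov i t
    exact ⟨p.1, ⟨p, hp, rfl⟩, ht⟩⟩)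
  -- the finite subcover
  let ι := {p : ℕ × Set K // p.2 ∈ W p.1}
  have hopen : ∀ p : ι, IsOpen p.1.2 := fun p => ((hW p.1.1).1 _ p.2).1
  obtain ⟨J, hJ⟩ := (isCompact_univ (X := K)).elim_finite_subcover (fun p : ι => p.1.2) hopen (by
    intro t _
    have ht : t ∈ ⋃ i, ⋃₀ W i := by rw [hWcov]; trivial
    obtain ⟨i, v, hv, htv⟩ : ∃ i, ∃ v ∈ W i, t ∈ v := by simpa using ht
    exact mem_iUnion.2 ⟨⟨(i, v), hv⟩, htv⟩)
  have hy : ∀ p : ι, ∃ q ∈ F p.1.1, p.1.2 ⊆ q.1 := by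
    intro p
    obtain ⟨-, u, ⟨q, hq, rfl⟩, hsub⟩ := (hW p.1.1).1 _ p.2
    exact ⟨q, hq, hsub⟩
  choose q hq hqsub using hy
  -- shrinking
  obtain ⟨T, hT1, hT2, hT3⟩ := exists_iUnion_eq_closed_subset (X := K)
    (u := fun p : J => p.1.1.2) (fun p => hopen p.1) (fun _ => toFinite _) (by
      rw [eq_univ_iff_forall]
      intro t
      have := hJ (mem_univ t)
      simp only [mem_iUnion] at this
      obtain ⟨p, hp, ht⟩ := this
      exact mem_iUnion.2 ⟨⟨p, hp⟩, ht⟩)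
  have hφ : ∀ p : J, ∃ φ : C(K, ℝ), EqOn φ 0 (p.1.1.2)ᶜ ∧ EqOn φ 1 (T p) ∧
      ∀ x, φ x ∈ Icc (0 : ℝ) 1 := fun p =>
    exists_continuous_zero_one_of_isClosed (hopen p.1).isClosed_compl (hT2 p)
      (disjoint_left.2 fun x hx hx' => hx (hT3 p hx'))
  choose φ hφ0 hφ1 hφI using hφ
  have hφex : ∀ t, ∃ p : J, φ p t = 1 := by
    intro t
    have ht : t ∈ iUnion T := by rw [hT1]; trivial
    obtain ⟨p, hp⟩ := mem_iUnion.1 ht
    exact ⟨p, hφ1 p hp⟩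
  have hmem : ∀ (p : J) t, φ p t ≠ 0 → t ∈ p.1.1.2 := by
    intro p t hne
    by_contra hcon
    exact hne (hφ0 p hcon)
  have huniq : ∀ (p p' : J) t, p.1.1.1 = p'.1.1.1 → φ p t ≠ 0 → φ p' t ≠ 0 → p = p' := by
    intro p p' t he hp hp'
    have e1 : p.1.1.2 = p'.1.1.2 := by
      by_contra hne
      have hm' : p'.1.1.2 ∈ W p.1.1.1 := by rw [he]; exact p'.1.2
      have hd := (hW p.1.1.1).2 p.1.2 hm' hne
      exact disjoint_left.1 hd (hmem p t hp) (hmem p' t hp')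
    exact Subtype.ext (Subtype.ext (Prod.ext he e1))
  -- the stages
  let sgm : ℕ → (K → V) → K → V := fun j g t =>
    ∑ p ∈ Finset.univ.filter (fun p : J => p.1.1.1 = j), φ p t • (q p.1).2 (g t)
  let f : ℕ → K → V := fun n => Nat.rec (fun _ => 0) (fun j g t => g t + sgm j g t) n
  have f_zero : f 0 = fun _ => 0 := rfl
  have f_succ : ∀ j t, f (j + 1) t = f j t + sgm j (f j) t := fun _ _ => rfl
  have sg_eq : ∀ (p : J) (g : K → V) t, φ p t ≠ 0 →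
      sgm p.1.1.1 g t = φ p t • (q p.1).2 (g t) := by
    intro p g t hp
    refine Finset.sum_eq_single p ?_ ?_
    · intro p' hp' hne
      by_contra hcon
      refine hne (huniq p' p t (Finset.mem_filter.1 hp').2 (fun h0 => hcon (by rw [h0, zero_smul])) hp)
    · intro hp'
      have hpm : p ∈ Finset.univ.filter (fun p' : J => p'.1.1.1 = p.1.1.1) := by
        rw [Finset.mem_filter]
        exact ⟨Finset.mem_univ p, rfl⟩
      exact absurd hpm hp'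
  have sg_cases : ∀ j (g : K → V) t, (∃ p : J, p.1.1.1 = j ∧ φ p t ≠ 0) ∨ sgm j g t = 0 := by
    intro j g t
    by_cases hex : ∃ p : J, p.1.1.1 = j ∧ φ p t ≠ 0
    · exact Or.inl hex
    · right
      refine Finset.sum_eq_zero fun p hp => ?_
      by_cases h0 : φ p t = 0
      · rw [h0, zero_smul]
      · exact absurd ⟨p, (Finset.mem_filter.1 hp).2, h0⟩ hex
  have pre : ∀ i, Continuous (f i) ∧ ∀ t, f i t ∈ B i := by
    intro i
    induction i with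
    | zero => exact ⟨continuous_const, fun _ => hB0⟩
    | succ i ih =>
      constructor
      · have e : f (i + 1) = fun t => f i t + sgm i (f i) t := rfl
        rw [e]
        refine ih.1.add (continuous_finset_sum _ fun p hp => ?_)
        have hi : p.1.1.1 = i := (Finset.mem_filter.1 hp).2
        have hq' := (hF p.1.1.1 (q p.1) (hq p.1)).2.1
        rw [hi] at hq'
        exact (φ p).continuous.smul (hq'.comp_continuous ih.1 ih.2)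
      · intro t
        rw [f_succ]
        rcases sg_cases i (f i) t with ⟨p, hp, hp0⟩ | h0
        · subst hp
          rw [sg_eq p _ t hp0]
          exact hB' _ _ (ih.2 t) _ (hq p.1) _ (hφI p t)
        · rw [h0, add_zero]
          exact hB i _ (ih.2 t)
  have nrm : ∀ j t, ‖sgm j (f j) t‖ ≤ ρ j := by
    intro j t
    rcases sg_cases j (f j) t with ⟨p, hp, hp0⟩ | h0
    · subst hp
      rw [sg_eq p _ t hp0, norm_smul, Real.norm_of_nonneg (hφI p t).1]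
      have h1 := (hF p.1.1.1 (q p.1) (hq p.1)).2.2.1 _ ((pre p.1.1.1).2 t)
      have h2 : φ p t * ‖(q p.1).2 (f p.1.1.1 t)‖ ≤ 1 * ‖(q p.1).2 (f p.1.1.1 t)‖ :=
        mul_le_mul_of_nonneg_right (hφI p t).2 (norm_nonneg _)
      linarith
    · rw [h0, norm_zero]
      exact (hρ0 j).le
  have tail : ∀ i t n, i + 1 ≤ n → ‖f n t - f (i + 1) t‖ + 2 * ρ n ≤ 2 * ρ (i + 1) := by
    intro i t n hn
    induction n, hn using Nat.le_induction with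
    | base => rw [sub_self, norm_zero, zero_add]
    | succ n hn ih =>
      have e := hρ n
      have e1 : f (n + 1) t - f (i + 1) t = (f n t - f (i + 1) t) + sgm n (f n) t := by
        rw [f_succ]; abel
      have e2 := norm_add_le (f n t - f (i + 1) t) (sgm n (f n) t)
      have e3 := nrm n t
      rw [e1]
      linarith
  -- a bound for the stages
  obtain ⟨n, hn⟩ : ∃ n, ∀ p : J, p.1.1.1 < n := by
    obtain ⟨M, hM⟩ := (Finset.univ.image fun p : J => p.1.1.1).bddAbove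
    exact ⟨M + 1, fun p => Nat.lt_succ_of_le
      (hM (Finset.mem_coe.2 (Finset.mem_image_of_mem _ (Finset.mem_univ p))))⟩
  refine ⟨⟨f n, (pre n).1⟩, fun t => ?_⟩
  obtain ⟨p, hp⟩ := hφex t
  have hp0 : φ p t ≠ 0 := by rw [hp]; exact one_ne_zero
  have h1 : f (p.1.1.1 + 1) t = f p.1.1.1 t + (q p.1).2 (f p.1.1.1 t) := by
    rw [f_succ, sg_eq p _ t hp0, hp, one_smul]
  have h2 := tail p.1.1.1 t n (hn p)
  have h3 := hρ0 n
  have h4 := hρμ p.1.1.1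
  have key := (hF p.1.1.1 (q p.1) (hq p.1)).2.2.2 t (hqsub p.1 (hmem p t hp0)) _
    ((pre p.1.1.1).2 t) (f n t - f (p.1.1.1 + 1) t) (by linarith)
  rw [← h1, add_sub_cancel] at key
  exact key

end Vale.Agent.P133.R2.H442
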