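import Vale.Agent.P133.R2.H307.Spec2
import Vale.Agent.P133.R2.H442.SelCore

/-!
P133: row S of helper307.
-/

namespace Vale.Agent.P133.R2.H442

open Vale.Agent.P133.R2.H307

universe v w

theorem specSel : SpecSel.{v, w} :=
  fun _ _ _ _ hK _ _ _ _ hG hz => sel hK hG hz

end Vale.Agent.P133.R2.H442
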